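import Vale.Agent.P246.R3.H816.Defs
import Mathlib.GroupTheory.SemidirectProduct

/-! Row GRP: the free product `G * F_n`. -/

namespace Vale.Agent.P246.H205

open Vale.Agent.P246 Vale.Agent.P246.H816 Monoid

variable {G H : Type} [Group G] [Group H] (n : ℕ)

/-- the linear action -/
noncomputable def linAct (H : Type) [Group H] (n : ℕ) :
    H →* MulAut (Multiplicative (Fin n → ZG H)) where
  toFun h :=
    { toFun := fun x => Multiplicative.ofAdd (elt h • Multiplicative.toAdd x)
      invFun := fun x => Multiplicative.ofAdd (elt h⁻¹ • Multiplicative.toAdd x)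
      left_inv := fun x => by
        simp only [toAdd_ofAdd, ← mul_smul, elt_mul_elt, inv_mul_cancel, elt_one, one_smul,
          ofAdd_toAdd]
      right_inv := fun x => by
        simp only [toAdd_ofAdd, ← mul_smul, elt_mul_elt, mul_inv_cancel, elt_one, one_smul,
          ofAdd_toAdd]
      map_mul' := fun x y => by
        simp only [toAdd_mul, smul_add, ofAdd_add] }
  map_one' := by
    ext x
    simp [elt_one]
  map_mul' a b := by
    ext x
    simp [← elt_mul_elt, mul_smul]

theorem linAct_apply (h : H) (x : Multiplicative (Fin n → ZG H)) :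
    linAct H n h x = Multiplicative.ofAdd (elt h • Multiplicative.toAdd x) := rfl

/-- the affine action -/
noncomputable def aff (G : Type) [Group G] (n : ℕ) :
    Coprod G (FreeGroup (Fin n)) →*
      Multiplicative (Fin n → ZG (Coprod G (FreeGroup (Fin n)))) ⋊[linAct _ n]
        Coprod G (FreeGroup (Fin n)) :=
  Coprod.lift (SemidirectProduct.inr.comp Coprod.inl)
    (FreeGroup.lift fun j =>
      ⟨Multiplicative.ofAdd (Pi.single j 1), Coprod.inr (FreeGroup.of j)⟩)

theorem aff_inl (g : G) : aff G n (Coprod.inl g) = SemidirectProduct.inr (Coprod.inl g) := by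
  rw [aff, Coprod.lift_apply_inl]
  rfl

theorem aff_inr (j : Fin n) : aff G n (Coprod.inr (FreeGroup.of j)) =
    ⟨Multiplicative.ofAdd (Pi.single j 1), Coprod.inr (FreeGroup.of j)⟩ := by
  rw [aff, Coprod.lift_apply_inr, FreeGroup.lift_apply_of]

theorem aff_right (h : Coprod G (FreeGroup (Fin n))) : (aff G n h).right = h := by
  have h1 : SemidirectProduct.rightHom.comp (aff G n) = MonoidHom.id _ := by
    apply Coprod.hom_ext
    · ext g
      simp [aff_inl]
    · ext j
      simp [aff_inr]
  exact DFunLike.congr_fun h1 h

theorem row : SpecGRP := by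
  intro G _ n
  refine ⟨{
    ι := Coprod.inl
    ρ := Coprod.fst
    t := fun j => Coprod.inr (FreeGroup.of j)
    ρι := fun g => Coprod.fst_apply_inl g
    ρt := fun j => Coprod.fst_apply_inr _
    ker := ?_
    gen := ?_
    D := fun h => Multiplicative.toAdd (aff G n h).left
    D_mul := ?_
    D_ι := ?_
    D_t := ?_ }⟩
  · apply le_antisymm
    · intro h hh
      set N := Subgroup.normalClosure
        (Set.range fun j : Fin n => (Coprod.inr (FreeGroup.of j) : Coprod G (FreeGroup (Fin n))))
      have h1 : QuotientGroup.mk' N = (QuotientGroup.mk' N).comp (Coprod.inl.comp Coprod.fst) := by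
        apply Coprod.hom_ext
        · ext g
          simp
        · ext j
          simp only [MonoidHom.comp_apply, QuotientGroup.mk'_apply, Coprod.fst_apply_inr, map_one,
            QuotientGroup.mk_one]
          exact (QuotientGroup.eq_one_iff _).2 (Subgroup.subset_normalClosure ⟨j, rfl⟩)
      have h2 := DFunLike.congr_fun h1 h
      have h3 : Coprod.fst h = 1 := hh
      simp only [MonoidHom.comp_apply, QuotientGroup.mk'_apply, h3, map_one,
        QuotientGroup.mk_one] at h2
      exact (QuotientGroup.eq_one_iff _).1 h2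
    · apply Subgroup.normalClosure_le_normal
      rintro _ ⟨j, rfl⟩
      exact Coprod.fst_apply_inr _
  · rw [eq_top_iff, ← Coprod.range_inl_sup_range_inr]
    apply sup_le
    · rintro _ ⟨g, rfl⟩
      exact Subgroup.subset_closure (Or.inl ⟨g, rfl⟩)
    · rw [MonoidHom.range_eq_map, ← FreeGroup.closure_range_of, MonoidHom.map_closure,
        Subgroup.closure_le]
      rintro _ ⟨_, ⟨j, rfl⟩, rfl⟩
      exact Subgroup.subset_closure (Or.inr ⟨j, rfl⟩)
  · intro a b
    rw [map_mul, SemidirectProduct.mul_left, aff_right, toAdd_mul, linAct_apply, toAdd_ofAdd]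
  · intro g
    rw [aff_inl]
    rfl
  · intro j
    rw [aff_inr]
    rfl

end Vale.Agent.P246.H205
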